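import Mathlib
import Vale.Agent.Lib.P329.helper24.BProdRight
import Vale.Agent.Lib.P329.helper24.CoveredMain
import Vale.Agent.Lib.P329.helper24.Small
import Vale.Agent.Lib.P329.helper24.Main

/-!
# P329: monoids all of whose languages have generalized star height at most one

`GRE α` is the type of generalized regular expressions over the alphabet `α` (constants `0`, `1`,
letters, union, concatenation, complement, Kleene star), `GRE.lang` is the denoted language and
`GRE.height` the star height.  `RecLE h N` says that every language recognized by the monoid `N`
is denoted by a generalized regular expression of star height at most `h`.  `BlockProd K N` is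
the block product (two-sided semidirect product) `K □ N` of Rhodes and Tilson: the pairs `(f, n)`
with `f : N × N → K` and `n : N`, multiplied by
`(f, n) (f', n') = (fun (x, y) => f (x, n' y) f' (x n, y), n n')`.

1. `H □ M` satisfies `RecLE 1` for every finite commutative group `H` and finite aperiodic
   monoid `M`.
2. For every `h`, if `N` satisfies `RecLE h` and `K` is a finite aperiodic monoid, then `K □ N`
   satisfies `RecLE h`.
3. For every `h`, if `N` satisfies `RecLE h` and `K` is a finite `J`-trivial monoid (`x s t = x`
   implies `x s = x`, and `t s x = x` implies `s x = x`), then `N □ K` satisfies `RecLE h`.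
4. `RecLE h` is preserved by direct products, submonoids and quotients.
5. `RecLE 1` holds for the finite groups of order less than 24 (with a nontrivial central element
   when the order is 20), for the finite nilpotent groups of class at most three and for the
   finite groups with an abelian normal subgroup whose quotient is an elementary abelian
   `q`-group.
6. Consequently `K □ (H □ M)` satisfies `RecLE 1` for finite aperiodic monoids `K`, `M` and a
   finite commutative group `H`.

Proof outline.  1. The first component of the image of a word in `H □ M` is, at every argument,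
a product over the positions of the word of a function of the letter and of the images in `M` of
the parts before and after it; such products are handled by cutting the word at the positions
of one fixed type.  2. The first component of the image of a word `w` in `K □ N` at `(x, y)` is
the image in `K` of the word obtained from `w` by tagging each letter with `x` times the image in
`N` of the part before it and the image of the part after it times `y`.  The tagged words with a
given image form a star-free language by the theorem of Schutzenberger, and the set of words
whose tagged word lies in a star-free language is obtained by induction on a star-free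
expression: a concatenation is split according to the images in `N` of the two factors.
3. Now the tags are in `K` and the tagged words with a given image in `N` are given by an
expression of height at most `h` over the tagged alphabet; its inverse image under tagging is
computed by induction on the expression.  For a star, a factorization of the word into pieces
has a pair of tags at each cut; in a `J`-trivial monoid this pair never returns to a value it has
left, so the word is a bounded product of stars of pieces that keep the pair and of single
pieces that change it.
-/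

namespace Vale.Agent.Results.P329.A_BlockProductClosure

open Vale.Agent.Lib.P329

/-- `RecLE h N`: every language recognized by the monoid `N`, that is every set
`{w | φ w ∈ T}` for a finite alphabet `α`, a morphism `φ` from words over `α` to `N` (given by
the images of the letters) and a subset `T` of `N`, is denoted by a generalized regular
expression of star height at most `h`. -/
def RecLE (h : ℕ) (N : Type) [Monoid N] : Prop :=
  ∀ (α : Type) [Fintype α] (φ : α → N) (T : Set N),
    ∃ e : GRE α, e.height ≤ h ∧ e.lang = {w : List α | (w.map φ).prod ∈ T}

theorem result :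
    (∀ (H M : Type) [CommGroup H] [Finite H] [Monoid M] [Finite M],
      (∀ x : M, ∃ k : ℕ, x ^ k = x ^ (k + 1)) → RecLE 1 (BlockProd H M)) ∧
    (∀ (h : ℕ) (K N : Type) [Monoid K] [Finite K] [Monoid N] [Finite N],
      (∀ x : K, ∃ k : ℕ, x ^ k = x ^ (k + 1)) → RecLE h N → RecLE h (BlockProd K N)) ∧
    (∀ (h : ℕ) (N K : Type) [Monoid N] [Finite N] [Monoid K] [Finite K],
      (∀ x s t : K, x * s * t = x → x * s = x) → (∀ x s t : K, t * s * x = x → s * x = x) →
        RecLE h N → RecLE h (BlockProd N K)) ∧
    (∀ (h : ℕ) (N₁ N₂ : Type) [Monoid N₁] [Finite N₁] [Monoid N₂] [Finite N₂],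
      RecLE h N₁ → RecLE h N₂ → RecLE h (N₁ × N₂)) ∧
    (∀ (h : ℕ) (N N' : Type) [Monoid N] [Monoid N'] (f : N' →* N),
      Function.Injective f → RecLE h N → RecLE h N') ∧
    (∀ (h : ℕ) (N N' : Type) [Monoid N] [Monoid N'] (f : N →* N'),
      Function.Surjective f → RecLE h N → RecLE h N') ∧
    (∀ (G : Type) [Group G] [Finite G],
      ((Nat.card G < 24 ∧ (Nat.card G = 20 → ∃ z : G, z ≠ 1 ∧ ∀ g : G, g * z = z * g)) ∨
        Subgroup.upperCentralSeries G 3 = ⊤ ∨
        ∃ (A : Subgroup G) (q : ℕ), A.Normal ∧ q.Prime ∧ (∀ a ∈ A, ∀ b ∈ A, a * b = b * a) ∧
          (∀ g : G, g ^ q ∈ A) ∧ (∀ g h : G, g * h * g⁻¹ * h⁻¹ ∈ A)) → RecLE 1 G) ∧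
    (∀ (K H M : Type) [Monoid K] [Finite K] [CommGroup H] [Finite H] [Monoid M] [Finite M],
      (∀ x : K, ∃ k : ℕ, x ^ k = x ^ (k + 1)) → (∀ x : M, ∃ k : ℕ, x ^ k = x ^ (k + 1)) →
        RecLE 1 (BlockProd K (BlockProd H M))) := by
  have c1 : ∀ (H M : Type) [CommGroup H] [Finite H] [Monoid M] [Finite M],
      (∀ x : M, ∃ k : ℕ, x ^ k = x ^ (k + 1)) → RecLE 1 (BlockProd H M) := by
    intro H M _ _ _ _ hM α _ φ T
    exact helper24.rec_blockProd_comm φ hM T
  have c2 : ∀ (h : ℕ) (K N : Type) [Monoid K] [Finite K] [Monoid N] [Finite N],
      (∀ x : K, ∃ k : ℕ, x ^ k = x ^ (k + 1)) → RecLE h N → RecLE h (BlockProd K N) := by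
    intro h K N _ _ _ _ hK hN α _ φ T
    exact helper24.rec_blockProd_aperiodic φ hK h (fun S => hN α _ S) T
  refine ⟨c1, c2, ?_, ?_, ?_, ?_, ?_, ?_⟩
  · intro h N K _ _ _ _ hR hL hN α _ φ T
    classical
    have := Fintype.ofFinite K
    exact helper24.rec_blockProd_tag φ (MonoidHom.id K) (MonoidHom.id K) (fun a p => (φ a).fn p)
      (fun _ _ _ => rfl) (helper24.aperiodic_of_rtrivial hR) hR hL h
      (fun t => hN (K × α × K) _ {s | s = t}) T
  · intro h N₁ N₂ _ _ _ _ h1 h2 α _ φ T
    exact helper24.rec_prod h φ (fun S => h1 α _ S) (fun S => h2 α _ S) T
  · intro h N N' _ _ f hf hN α _ φ T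
    exact helper24.rec_of_injective f hf h φ (fun S => hN α _ S) T
  · intro h N N' _ _ f hf hN α _ φ T
    exact helper24.rec_of_surjective f hf h φ (fun g S => hN α g S) T
  · intro G _ _ h α _ φ T
    rcases h with ⟨h1, h2⟩ | h | ⟨A, q, hn, hq, hA, hpow, hcomm⟩
    · exact helper24.covered_height_one (helper24.small_group_covered h1 h2) φ T
    · have hnil : Group.IsNilpotent G := ⟨⟨3, h⟩⟩
      exact helper24.class3_height_one
        (Subgroup.lowerCentralSeries_eq_bot_iff_nilpotencyClass_le.2
          (Subgroup.upperCentralSeries_eq_top_iff_nilpotencyClass_le.1 h)) φ T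
    · exact helper24.covered_height_one (Or.inr ⟨A, q, hn, hq, hA, hpow, hcomm⟩) φ T
  · intro K H M _ _ _ _ _ _ hK hM
    exact c2 1 K (BlockProd H M) hK (c1 H M hM)

end Vale.Agent.Results.P329.A_BlockProductClosure
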