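import Mathlib
import Vale.Agent.Lib.P329.helper24.BProdRight
import Vale.Agent.Lib.P329.helper24.CoveredMain
import Vale.Agent.Lib.P329.helper24.Small
import Vale.Agent.Lib.P329.helper24.Main
import Vale.Agent.Lib.P329.helper28.Small
import Vale.Agent.Lib.P329.helper28.SymFour
import Vale.Agent.Lib.P329.helper28.Marked
import Vale.Agent.Lib.P329.helper10.Neutral

/-!
# P329: languages of generalized star height at most one - block products, small groups,
two-letter alphabets and letters in one coset of an abelian normal subgroup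

`GRE α` is the type of generalized regular expressions over the alphabet `α` (constants `0`, `1`,
letters, union, concatenation, complement, Kleene star), `GRE.lang` is the denoted language and
`GRE.height` the star height.  `RecLE h N` says that every language recognized by the monoid `N`
is denoted by a generalized regular expression of star height at most `h`.  `BlockProd K N` is
the block product (two-sided semidirect product) `K □ N` of Rhodes and Tilson: the pairs `(f, n)`
with `f : N × N → K` and `n : N`, multiplied by
`(f, n) (f', n') = (fun (x, y) => f (x, n' y) f' (x n, y), n n')`.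

The statement is the conjunction of three groups of results.

I. Monoids all of whose languages have height at most one, and closure properties.
1. `H □ M` satisfies `RecLE 1` for every finite commutative group `H` and finite aperiodic
   monoid `M`.
2. If `N` satisfies `RecLE h` and `K` is a finite aperiodic monoid, then `K □ N` satisfies
   `RecLE h`.
3. If `N` satisfies `RecLE h` and `K` is a finite `J`-trivial monoid, then `N □ K` satisfies
   `RecLE h`.
4. `RecLE h` is preserved by direct products, submonoids and quotients.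
5. `RecLE 1` holds for the finite groups of order less than 24 (with a nontrivial central element
   when the order is 20), for the finite nilpotent groups of class at most three and for the
   finite groups with an abelian normal subgroup whose quotient is an elementary abelian
   `q`-group.
6. `K □ (H □ M)` satisfies `RecLE 1` for finite aperiodic monoids `K`, `M` and a finite
   commutative group `H`.

II. The groups not covered by I.5 among the groups of order less than 24 and the symmetric group
on four points, for restricted morphisms.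
1. Every language over a two-letter alphabet recognized by a group of order less than 24, or by
   the group of the permutations of `Fin 4`, has generalized star height at most one.
2. The same for any finite alphabet when the letters take at most two values besides the
   identity.
3. For a group of order 20 and any finite alphabet, the same when no letter is sent to an
   element of order two.
4. For the group of the permutations of `Fin 4` and any finite alphabet, the same when, for
   every letter sent to a fixed-point-free involution, the letters sent to odd permutations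
   either all commute with it or all fail to commute with it.

III. For a finite group `G`, an abelian normal subgroup `A` and `g ∈ G`, every language
recognized through a morphism sending every letter into `A` or into the coset `g A` has
generalized star height at most one.
-/

namespace Vale.Agent.Results.P329.A_BlockProductsAndSmallGroups

open Vale.Agent.Lib.P329

/-- `RecLE h N`: every language recognized by the monoid `N`, that is every set
`{w | φ w ∈ T}` for a finite alphabet `α`, a morphism `φ` from words over `α` to `N` (given by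
the images of the letters) and a subset `T` of `N`, is denoted by a generalized regular
expression of star height at most `h`. -/
def RecLE (h : ℕ) (N : Type) [Monoid N] : Prop :=
  ∀ (α : Type) [Fintype α] (φ : α → N) (T : Set N),
    ∃ e : GRE α, e.height ≤ h ∧ e.lang = {w : List α | (w.map φ).prod ∈ T}

theorem result :
    ((∀ (H M : Type) [CommGroup H] [Finite H] [Monoid M] [Finite M],
      (∀ x : M, ∃ k : ℕ, x ^ k = x ^ (k + 1)) → RecLE 1 (BlockProd H M)) ∧
    (∀ (h : ℕ) (K N : Type) [Monoid K] [Finite K] [Monoid N] [Finite N],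
      (∀ x : K, ∃ k : ℕ, x ^ k = x ^ (k + 1)) → RecLE h N → RecLE h (BlockProd K N)) ∧
    (∀ (h : ℕ) (N K : Type) [Monoid N] [Finite N] [Monoid K] [Finite K],
      (∀ x s t : K, x * s * t = x → x * s = x) → (∀ x s t : K, t * s * x = x → s * x = x) →
        RecLE h N → RecLE h (BlockProd N K)) ∧
    (∀ (h : ℕ) (N₁ N₂ : Type) [Monoid N₁] [Finite N₁] [Monoid N₂] [Finite N₂],
      RecLE h N₁ → RecLE h N₂ → RecLE h (N₁ × N₂)) ∧
    (∀ (h : ℕ) (N N' : Type) [Monoid N] [Monoid N'] (f : N' →* N),
      Function.Injective f → RecLE h N → RecLE h N') ∧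
    (∀ (h : ℕ) (N N' : Type) [Monoid N] [Monoid N'] (f : N →* N'),
      Function.Surjective f → RecLE h N → RecLE h N') ∧
    (∀ (G : Type) [Group G] [Finite G],
      ((Nat.card G < 24 ∧ (Nat.card G = 20 → ∃ z : G, z ≠ 1 ∧ ∀ g : G, g * z = z * g)) ∨
        Subgroup.upperCentralSeries G 3 = ⊤ ∨
        ∃ (A : Subgroup G) (q : ℕ), A.Normal ∧ q.Prime ∧ (∀ a ∈ A, ∀ b ∈ A, a * b = b * a) ∧
          (∀ g : G, g ^ q ∈ A) ∧ (∀ g h : G, g * h * g⁻¹ * h⁻¹ ∈ A)) → RecLE 1 G) ∧
    (∀ (K H M : Type) [Monoid K] [Finite K] [CommGroup H] [Finite H] [Monoid M] [Finite M],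
      (∀ x : K, ∃ k : ℕ, x ^ k = x ^ (k + 1)) → (∀ x : M, ∃ k : ℕ, x ^ k = x ^ (k + 1)) →
        RecLE 1 (BlockProd K (BlockProd H M)))) ∧
    ((∀ (G : Type) [Group G] [Finite G], Nat.card G < 24 →
      ∀ (φ : Fin 2 → G) (T : Set G),
        ∃ e : GRE (Fin 2), e.height ≤ 1 ∧
          e.lang = {w : List (Fin 2) | (w.map φ).prod ∈ T}) ∧
    (∀ (φ : Fin 2 → Equiv.Perm (Fin 4)) (T : Set (Equiv.Perm (Fin 4))),
      ∃ e : GRE (Fin 2), e.height ≤ 1 ∧
        e.lang = {w : List (Fin 2) | (w.map φ).prod ∈ T}) ∧
    (∀ (G : Type) [Group G] [Finite G], Nat.card G < 24 →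
      ∀ (α : Type) [Fintype α] (φ : α → G),
        (∃ g h : G, ∀ a, φ a = 1 ∨ φ a = g ∨ φ a = h) →
        ∀ T : Set G, ∃ e : GRE α, e.height ≤ 1 ∧
          e.lang = {w : List α | (w.map φ).prod ∈ T}) ∧
    (∀ (α : Type) [Fintype α] (φ : α → Equiv.Perm (Fin 4)),
      (∃ g h : Equiv.Perm (Fin 4), ∀ a, φ a = 1 ∨ φ a = g ∨ φ a = h) →
      ∀ T : Set (Equiv.Perm (Fin 4)),
        ∃ e : GRE α, e.height ≤ 1 ∧ e.lang = {w : List α | (w.map φ).prod ∈ T}) ∧
    (∀ (G : Type) [Group G] [Finite G], Nat.card G = 20 →
      ∀ (α : Type) [Fintype α] (φ : α → G), (∀ a, φ a = 1 ∨ φ a * φ a ≠ 1) →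
        ∀ T : Set G, ∃ e : GRE α, e.height ≤ 1 ∧
          e.lang = {w : List α | (w.map φ).prod ∈ T}) ∧
    (∀ (α : Type) [Fintype α] (φ : α → Equiv.Perm (Fin 4)),
      (∀ a, (∀ i, φ a i ≠ i ∧ φ a (φ a i) = i) →
        (∀ b, Equiv.Perm.sign (φ b) = -1 → φ a * φ b ≠ φ b * φ a) ∨
          (∀ b, Equiv.Perm.sign (φ b) = -1 → φ a * φ b = φ b * φ a)) →
      ∀ T : Set (Equiv.Perm (Fin 4)),
        ∃ e : GRE α, e.height ≤ 1 ∧ e.lang = {w : List α | (w.map φ).prod ∈ T})) ∧
    (∀ (G : Type) [Group G] [Finite G] (A : Subgroup G) [A.Normal],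
      (∀ a ∈ A, ∀ b ∈ A, a * b = b * a) →
      ∀ (α : Type) [Fintype α] (φ : α → G) (g : G), (∀ c : α, φ c ∈ A ∨ g⁻¹ * φ c ∈ A) →
        ∀ T : Set G, ∃ e : GRE α, e.height ≤ 1 ∧
          e.lang = {w : List α | (w.map φ).prod ∈ T}) := by
  have c1 : ∀ (H M : Type) [CommGroup H] [Finite H] [Monoid M] [Finite M],
      (∀ x : M, ∃ k : ℕ, x ^ k = x ^ (k + 1)) → RecLE 1 (BlockProd H M) := by
    intro H M _ _ _ _ hM α _ φ T
    exact helper24.rec_blockProd_comm φ hM T
  have c2 : ∀ (h : ℕ) (K N : Type) [Monoid K] [Finite K] [Monoid N] [Finite N],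
      (∀ x : K, ∃ k : ℕ, x ^ k = x ^ (k + 1)) → RecLE h N → RecLE h (BlockProd K N) := by
    intro h K N _ _ _ _ hK hN α _ φ T
    exact helper24.rec_blockProd_aperiodic φ hK h (fun S => hN α _ S) T
  refine ⟨⟨c1, c2, ?_, ?_, ?_, ?_, ?_, ?_⟩, ⟨?_, ?_, ?_, ?_, ?_, ?_⟩, ?_⟩
  · intro h N K _ _ _ _ hR hL hN α _ φ T
    classical
    have := Fintype.ofFinite K
    exact helper24.rec_blockProd_tag φ (MonoidHom.id K) (MonoidHom.id K) (fun a p => (φ a).fn p)
      (fun _ _ _ => rfl) (helper24.aperiodic_of_rtrivial hR) hR hL h
      (fun t => hN (K × α × K) _ {s | s = t}) T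
  · intro h N₁ N₂ _ _ _ _ h1 h2 α _ φ T
    exact helper24.rec_prod h φ (fun S => h1 α _ S) (fun S => h2 α _ S) T
  · intro h N N' _ _ f hf hN α _ φ T
    exact helper24.rec_of_injective f hf h φ (fun S => hN α _ S) T
  · intro h N N' _ _ f hf hN α _ φ T
    exact helper24.rec_of_surjective f hf h φ (fun g S => hN α g S) T
  · intro G _ _ h α _ φ T
    rcases h with ⟨h1, h2⟩ | h | ⟨A, q, hn, hq, hA, hpow, hcomm⟩
    · exact helper24.covered_height_one (helper24.small_group_covered h1 h2) φ T
    · have hnil : Group.IsNilpotent G := ⟨⟨3, h⟩⟩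
      exact helper24.class3_height_one
        (Subgroup.lowerCentralSeries_eq_bot_iff_nilpotencyClass_le.2
          (Subgroup.upperCentralSeries_eq_top_iff_nilpotencyClass_le.1 h)) φ T
    · exact helper24.covered_height_one (Or.inr ⟨A, q, hn, hq, hA, hpow, hcomm⟩) φ T
  · intro K H M _ _ _ _ _ _ hK hM
    exact c2 1 K (BlockProd H M) hK (c1 H M hM)
  · intro G _ _ hG φ T
    exact helper28.small_two_letters hG φ T
  · intro φ T
    exact helper28.s4_two_letters φ T
  · intro G _ _ hG α _ φ h T
    obtain ⟨g, h', h⟩ := h
    exact helper28.small_two_values hG φ g h' h T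
  · intro α _ φ h T
    obtain ⟨g, h', h⟩ := h
    exact helper28.s4_two_values φ g h' h T
  · intro G _ _ hG α _ φ hφ T
    exact helper28.order20_no_involution hG φ hφ T
  · intro α _ φ hφ T
    exact helper28.s4_mixed φ hφ T
  · intro G _ _ A _ hA α _ φ g hφ T
    exact helper10.neutral_coset A hA φ g hφ T

end Vale.Agent.Results.P329.A_BlockProductsAndSmallGroups
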