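import Mathlib
import Vale.Agent.Lib.P329.helper24.CoveredMain
import Vale.Agent.Lib.P329.helper24.Small
import Vale.Agent.Lib.P329.helper24.Main

/-!
# P329: generalized star height at most one for three classes of finite groups

`GRE α` is the type of generalized regular expressions over the alphabet `α` (constants `0`, `1`,
letters, union, concatenation, complement, Kleene star), `GRE.lang` is the denoted language and
`GRE.height` the star height.

1. Let `G` be a finite group such that
   * `G` has order less than 24 and, if its order is 20, a nontrivial central element (this
     excludes exactly one group of order less than 24, the Frobenius group of order 20), or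
   * `G` is nilpotent of class at most three (the third term of its upper central series is
     `G`), or
   * `G` has an abelian normal subgroup `A` such that `G / A` is an elementary abelian `q`-group
     for a prime `q` (every `q`-th power and every commutator of `G` lies in `A`).
   Then every language recognized by `G` (the inverse image of a subset `T` of `G` under the
   monoid morphism from the free monoid on a finite alphabet `α` given by the images `φ a` of the
   letters) is denoted by a generalized regular expression of star height at most one.
2. For a word `u` of length at most three, the language of the words `w` in which the number of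
   occurrences of `u` as a scattered subword is congruent to `r` modulo `n` is denoted by a
   generalized regular expression of star height at most one.

Proof outline.  A group of order less than 24 other than the Frobenius group of order 20 is
nilpotent of class at most three or abelian by elementary abelian: prime powers `p ^ k` with
`k ≤ 4` have class at most three; orders `p * q` and `2 * p ^ 2` have an abelian normal
subgroup of prime index (Sylow); order 12 by the centralizer of a normal Sylow 3-subgroup, or by
Burnside's transfer theorem when there are four Sylow 3-subgroups; order 20 by the centralizer of
the normal Sylow 5-subgroup.  For class three one collects the occurrences of one letter at a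
time, which reduces to counting scattered subwords of length at most three.  For the abelian by
elementary abelian case the image of a word is determined by the end phase in `G / A` and by
phase counts of the induced walk on `G / A`, which are reduced to walks on `ℤ/q` by a finite
Radon inversion and computed by a block decomposition at a hub phase.
-/

namespace Vale.Agent.Results.P329.A_SmallOrderOmnibus

open Vale.Agent.Lib.P329

theorem result :
    (∀ (G : Type) [Group G] [Finite G],
      ((Nat.card G < 24 ∧ (Nat.card G = 20 → ∃ z : G, z ≠ 1 ∧ ∀ g : G, g * z = z * g)) ∨
        Subgroup.upperCentralSeries G 3 = ⊤ ∨
        ∃ (A : Subgroup G) (q : ℕ), A.Normal ∧ q.Prime ∧ (∀ a ∈ A, ∀ b ∈ A, a * b = b * a) ∧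
          (∀ g : G, g ^ q ∈ A) ∧ (∀ g h : G, g * h * g⁻¹ * h⁻¹ ∈ A)) →
      ∀ (α : Type) [Fintype α] (φ : α → G) (T : Set G),
        ∃ e : GRE α, e.height ≤ 1 ∧ e.lang = {w : List α | (w.map φ).prod ∈ T}) ∧
    (∀ (α : Type) [Fintype α] [DecidableEq α] (u : List α), u.length ≤ 3 →
      ∀ n : ℕ, 0 < n → ∀ r : ℕ,
        ∃ e : GRE α, e.height ≤ 1 ∧
          e.lang = {w : List α | (w.sublists).count u % n = r % n}) := by
  refine ⟨?_, ?_⟩
  · intro G _ _ h α _ φ T
    rcases h with ⟨h1, h2⟩ | h | ⟨A, q, hn, hq, hA, hpow, hcomm⟩
    · exact helper24.covered_height_one (helper24.small_group_covered h1 h2) φ T
    · have hnil : Group.IsNilpotent G := ⟨⟨3, h⟩⟩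
      exact helper24.class3_height_one
        (Subgroup.lowerCentralSeries_eq_bot_iff_nilpotencyClass_le.2
          (Subgroup.upperCentralSeries_eq_top_iff_nilpotencyClass_le.1 h)) φ T
    · exact helper24.covered_height_one (Or.inr ⟨A, q, hn, hq, hA, hpow, hcomm⟩) φ T
  · intro α _ _ u hu n hn r
    exact helper24.subword_count_height_one u hu n hn r

end Vale.Agent.Results.P329.A_SmallOrderOmnibus
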