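import Mathlib
import Vale.Agent.Lib.P329.helper10.Neutral

/-!
# P329: letters in an abelian normal subgroup or in one of its cosets

`GRE α` is the type of generalized regular expressions over the alphabet `α` (constants `0`, `1`,
letters, union, concatenation, complement, Kleene star), `GRE.lang` is the denoted language and
`GRE.height` the star height.

Let `G` be a finite group, `A` an abelian normal subgroup and `g ∈ G`.  If a morphism from the
free monoid sends every letter into `A` or into the coset `g A`, then every language recognized
through it (the inverse image of a subset `T` of `G`) is denoted by a generalized regular
expression of star height at most one.  The order `d` of `g A` in `G / A` is arbitrary (not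
assumed to be prime).  Examples: the standard generators of a metacyclic group or of a
lamplighter group `ℤ/n ≀ ℤ/d`.

Proof outline.  The image of a word `w` is determined by its end phase in `G / A` and by the
numbers, modulo the order of `G`, of occurrences of each letter at each phase of the induced walk
on `G / A` (`AbKernel`).  The letters in `A` are neutral for this walk and the others advance it
by `g A`, so the phase is `(g A)^k` after `k` non-neutral letters.

* Non-neutral letters (`Erase`, `Positional`): erase the neutral letters (inverse images under
  erasing preserve the star height) and count the occurrences of a letter at the positions of a
  residue class modulo `d`.  Cut the word into aligned blocks of length `d`.  For a primitive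
  word `β` of length `d` (one that differs from all its nontrivial rotations) the set `β*` is
  star-free, and the number of blocks different from `β`, modulo `M`, is the number of factors in
  the star-free code `β* (A^d \ β)`, given by the expression `(Z^M)* Z^c K` of star height one
  (`Code`, `Prim`, `Blocks`).  A block that is not primitive is invariant under the rotation by a
  proper divisor `d'` of `d`; the sums of the unknown counts over the classes modulo `d'` are
  positional counts for `d'`, known by induction, and the invariant components are peeled off one
  divisor at a time (`Peel`).
* Neutral letters (`Chain`): the occurrences of a neutral letter at a given phase are counted by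
  the hub-event lemma for the cyclic counter, whose event-free automaton is counter-free.
-/

namespace Vale.Agent.Results.P329.B_KernelAndOneCoset

open Vale.Agent.Lib.P329 Vale.Agent.Lib.P329.helper10

theorem result {G : Type} [Group G] [Finite G] (A : Subgroup G) [A.Normal]
    (hA : ∀ a ∈ A, ∀ b ∈ A, a * b = b * a) {α : Type} [Fintype α] (φ : α → G) (g : G)
    (hφ : ∀ c : α, φ c ∈ A ∨ g⁻¹ * φ c ∈ A) (T : Set G) :
    ∃ e : GRE α, e.height ≤ 1 ∧ e.lang = {w : List α | (w.map φ).prod ∈ T} :=
  neutral_coset A hA φ g hφ T

end Vale.Agent.Results.P329.B_KernelAndOneCoset
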